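import Vale.Agent.P073.R2.H488.TowC

/-!
# P073: homeomorphisms with two smooth components, layered and triangular homeomorphisms, off small
singular sets, for every exponent `1 ≤ p < ∞`
-/

namespace Vale.Agent.Results.P073.LayeredMaps

open Vale.Agent.P073.St Vale.Agent.P073.R2.H580
open Vale.Agent.P073.H655.V6 (FinelyApproximable)

/-- Let `1 ≤ p < ∞` and let `f : Ω → Λ` be a `W^{1,p}` homeomorphism between bounded domains of
`ℝ³`. Call a homeomorphism `f` of `U` onto `W` regular (`Reg`) if it has one of the following
properties.

* `TwoSmooth`: for some `C^∞` diffeomorphism `b` of `W` onto a bounded domain (with no bounds near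
  the boundary), two components of `b ∘ f` are smooth on `U`, with linearly independent
  differentials at each point. (So `f` maps the curves of a smooth foliation of `U` to the curves of
  a smooth foliation of `W`, smoothly in the transversal directions and by arbitrary homeomorphisms
  along the curves.)
* `LayerCoord`: for some `C^∞` diffeomorphisms `a : U' → U` and `b : W → W'` of bounded domains
  (with no bounds near the boundary) the map `f' = b ∘ f ∘ a` is layered. The coordinates are
  divided into layers, numbered by `r`; the components of `f'` in the layers below `b₀` (there may
  be none) are smooth, and a vector `h` with `D f'_j(x) h = 0` for all these `j` satisfies `h_j = 0`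
  for all these `j`; each other component depends, near each point, only on the coordinates in the
  layers up to its own; and `f'` is monotone along each layer `b ≥ b₀`: for some constant `c` and
  each vector `h` in the layer there is a vector `n` in the layer, `|n| ≤ c |h|`, `n · h ≥ |h|²`,
  such that near each point `n · f'` does not decrease in the direction `h`. For instance
  `f' = (x, g(x; y, z))` where `g(x; ·)` is locally monotone in the sense of Minty for each `x`
  (say, the gradient of a convex function), or `f' = (h(x, y), c(x, y, z))` with `h` locally
  monotone and `c` increasing in `z`; nothing beyond `W^{1,p}` is asked across the layers.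
* `TriCoord`: for some `a`, `b` as above, near each point `f'_0` depends only on `x_0` and `f'_1`
  only on `x_0` and `x_1`.

Call `f : Ω → Λ` tame (`Tower`) if there are relatively closed subsets
`∅ = K_0 ⊆ K_1 ⊆ ... ⊆ K_m` of `Ω` such that `f` is regular on `Ω \ K_m` and each
`K = K_{i+1} \ K_i` is small in `Ω' = Ω \ K_i`, after linear changes of variables in the domain and
in the target (which depend on `i`): the set `f(K)` has null projections to the coordinate axes (for
instance if the length of `f(K)` is zero, or if `K` is countable); or `p < 3` and `K` has σ-finite
length (for instance, `K` is a countable union of rectifiable curves), or, if `2 < p < 3`, σ-finite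
`(2p-3)/(p-1)`-dimensional measure, or area zero if `f` is locally Lipschitz on `Ω'`, or null
projections to the coordinate axes, or, more generally, almost all its slices parallel to the
coordinate planes and the images of these slices have null projections to the coordinate axes; or
`p > 3` and `K` has σ-finite `(p-3)/(p-1)`-dimensional Hausdorff measure.

(1) If `f` is tame, then `f` is finely diffeomorphically approximable in `W^{1,p}`: for every
positive continuous function `σ` on `Ω` and every `ε > 0` there is a `C^∞` diffeomorphism `g` of `Ω`
onto `Λ`, in `W^{1,p}`, with `|g - f| ≤ σ` on `Ω` and `∫_Ω |g - f|^p + |D g - D f|^p ≤ ε`. In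
particular `f` is diffeomorphically approximable in `W^{1,p}`.

(2) `f` is diffeomorphically approximable in `W^{1,p}` if and only if it is the limit in `W^{1,p}`
of tame `W^{1,p}` homeomorphisms of `Ω` onto `Λ`. -/
theorem result (p : ℝ) (hp : 1 ≤ p) (Ω Λ : Set V) (hΩ : IsBoundedDomain Ω)
    (hΛ : IsBoundedDomain Λ) (f : V → V) (hf : IsHomeo Ω Λ f) (F : V → Mat)
    (hF : IsSobolev p Ω f F) :
    (VC.Tower p Ω Λ f → FinelyApproximable p Ω Λ f F ∧ DiffeoApproximable p Ω Λ f F) ∧
    (VC.TowerApproximable p Ω Λ f F ↔ DiffeoApproximable p Ω Λ f F) :=
  ⟨fun h => ⟨Vale.Agent.P073.R2.H488.towerC_finely hp hΩ hΛ hf hF h,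
    Vale.Agent.P073.R2.H488.towerC_approximable hp hΩ hΛ hf hF h⟩,
    Vale.Agent.P073.R2.H488.towerC_iff hp hΩ hΛ hf hF⟩

end Vale.Agent.Results.P073.LayeredMaps
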